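import Vale.Agent.P083.Defs
import Vale.Agent.P083.Model
import Vale.Agent.P083.Glue

universe u v

theorem Vale.Agent.Results.P083.NoEmbedding.result :
    (∃ (B : Type) (_ : CStarAlgebra B) (_ : Nontrivial B) (s₁ s₂ : B),
      Vale.Agent.P083.IsCuntzTwo B s₁ s₂) ∧
    ∃ (A : Type) (_ : CStarAlgebra A), Nontrivial A ∧ TopologicalSpace.SeparableSpace A ∧
      ∀ (B : Type u) [CStarAlgebra B] [Nontrivial B] (s₁ s₂ : B),
        Vale.Agent.P083.IsCuntzTwo B s₁ s₂ → ∀ ω : Ultrafilter ℕ,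
          (∃ (Q : Type u) (_ : Ring Q) (_ : StarRing Q) (_ : Algebra ℂ Q),
            Vale.Agent.P083.IsUltrapower B ω Q) ∧
          ∀ (Q : Type v) [Ring Q] [StarRing Q] [Algebra ℂ Q],
            Vale.Agent.P083.IsUltrapower B ω Q → IsEmpty (A →⋆ₐ[ℂ] Q) := by
  refine ⟨Vale.Agent.P083.exists_cuntz, ?_⟩
  obtain ⟨A, _, I, J, _, _, _, _, p, u, r, w, h0, h1, hp, hI, hJ, h⟩ :=
    Vale.Agent.P083.exists_model
  refine ⟨A, inferInstance, h0, h1, fun B _ _ s₁ s₂ hB ω =>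
    ⟨⟨_, _, _, _, Vale.Agent.P083.isUltrapower_self⟩, fun Q _ _ _ hQ => ⟨fun φ => ?_⟩⟩⟩
  obtain ⟨ρ⟩ := hQ.exists_hom
  exact (Vale.Agent.P083.no_hom hp hI hJ h B s₁ s₂ hB ω).false (ρ.comp φ)
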